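import Mathlib

namespace Vale.Agent.Results.P061.ConstantAtLeastFour

open Finset

/-- A finite loopless multigraph with vertex type `V` and edge-copy type `E`:
every edge copy has an unordered pair of distinct end vertices; parallel copies are allowed. -/
structure Multigraph (V E : Type) where
  ends : E → Sym2 V
  loopless : ∀ e, ¬ (ends e).IsDiag

variable {V E : Type}

/-- The edge copy `e` has exactly one end vertex in `S`. -/
def Multigraph.Crosses (G : Multigraph V E) (S : Finset V) (e : E) : Prop :=
  ∃ u v, G.ends e = s(u, v) ∧ u ∈ S ∧ v ∉ S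

open Classical in
/-- The number of edge copies from `F` that have exactly one end vertex in `S`. -/
noncomputable def Multigraph.cutCard (G : Multigraph V E) (F : Finset E) (S : Finset V) : ℕ :=
  (F.filter (fun e => G.Crosses S e)).card

/-- `G` is `k`-edge-connected: every nonempty proper vertex set is left by at least `k` copies. -/
def Multigraph.EdgeConnected [Fintype V] [Fintype E] (G : Multigraph V E) (k : ℕ) : Prop :=
  ∀ S : Finset V, S.Nonempty → S ≠ univ → k ≤ G.cutCard univ S

/-- `T` is a spanning tree of `G`: no two copies in `T` are parallel and the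
simple graph on `V` formed by the copies in `T` is a tree (connected and acyclic) on all of `V`. -/
def Multigraph.IsSpanningTree (G : Multigraph V E) (T : Finset E) : Prop :=
  Set.InjOn G.ends (T : Set E) ∧ (SimpleGraph.fromEdgeSet (G.ends '' (T : Set E))).IsTree

/-- `T` is `α`-thin in `G`. -/
def Multigraph.IsThin [Fintype V] [Fintype E] (G : Multigraph V E) (T : Finset E) (α : ℝ) : Prop :=
  ∀ S : Finset V, S.Nonempty → S ≠ univ → (G.cutCard T S : ℝ) ≤ α * (G.cutCard univ S : ℝ)

/-- The strong thin tree conjecture holds with the constant `C`. -/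
def StrongThinTree (C : ℝ) : Prop :=
  ∀ k : ℕ, 1 ≤ k → ∀ (V E : Type) [Fintype V] [Fintype E] (G : Multigraph V E),
    2 ≤ Fintype.card V → G.EdgeConnected k →
      ∃ T : Finset E, G.IsSpanningTree T ∧ G.IsThin T (C / k)

/-- The complete graph on `Fin n` as a multigraph. -/
def complete (n : ℕ) : Multigraph (Fin n) {e : Sym2 (Fin n) // ¬ e.IsDiag} where
  ends := Subtype.val
  loopless := fun e => e.2

theorem cutCard_complete (n : ℕ) (S : Finset (Fin n)) :
    (complete n).cutCard univ S = S.card * (n - S.card) := by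
  classical
  have h1 : (S ×ˢ Sᶜ).card = S.card * (n - S.card) := by
    rw [card_product, card_compl, Fintype.card_fin]
  rw [← h1]
  unfold Multigraph.cutCard
  symm
  refine Finset.card_bij (fun p hp => ⟨s(p.1, p.2), ?_⟩) ?_ ?_ ?_
  · rw [mem_product, mem_compl] at hp
    simp only [Sym2.mk_isDiag_iff]
    rintro h
    exact hp.2 (h ▸ hp.1)
  · intro p hp
    rw [mem_product, mem_compl] at hp
    simp only [mem_filter, mem_univ, true_and]
    exact ⟨p.1, p.2, rfl, hp.1, hp.2⟩
  · intro p hp q hq h
    rw [mem_product, mem_compl] at hp hq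
    have h' : s(p.1, p.2) = s(q.1, q.2) := congrArg Subtype.val h
    rw [Sym2.eq_iff] at h'
    rcases h' with ⟨h1, h2⟩ | ⟨h1, h2⟩
    · exact Prod.ext h1 h2
    · exact absurd (h1 ▸ hp.1) hq.2
  · intro e he
    simp only [mem_filter, mem_univ, true_and] at he
    obtain ⟨u, v, huv, hu, hv⟩ := he
    refine ⟨(u, v), ?_, ?_⟩
    · rw [mem_product, mem_compl]; exact ⟨hu, hv⟩
    · apply Subtype.ext
      exact huv.symm

theorem complete_edgeConnected (k : ℕ) : (complete (k + 1)).EdgeConnected k := by
  intro S hS hS'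
  rw [cutCard_complete]
  have h1 : 1 ≤ S.card := hS.card_pos
  have h2 : S.card < k + 1 := by
    have := (Finset.card_lt_iff_ne_univ S).mpr hS'
    simpa using this
  generalize S.card = s at h1 h2
  obtain ⟨a, rfl⟩ : ∃ a, s = a + 1 := ⟨s - 1, by omega⟩
  obtain ⟨b, rfl⟩ : ∃ b, k = a + b + 1 := ⟨k - a - 1, by omega⟩
  have h3 : a + b + 1 + 1 - (a + 1) = b + 1 := by omega
  rw [h3]
  have : (a + 1) * (b + 1) = a * b + a + b + 1 := by ring
  rw [this]
  omega

/-- Every spanning tree has `card V - 1` copies, and all of them cross the cut given by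
one class of the bipartition of the tree. -/
theorem exists_full_cut [Fintype V] [Fintype E] (G : Multigraph V E) (T : Finset E)
    (hT : G.IsSpanningTree T) (hV : 2 ≤ Fintype.card V) :
    T.card + 1 = Fintype.card V ∧
      ∃ S : Finset V, S.Nonempty ∧ S ≠ univ ∧ G.cutCard T S = T.card := by
  classical
  obtain ⟨hinj, htree⟩ := hT
  have hcard : T.card + 1 = Fintype.card V := by
    rw [← htree.card_edgeFinset]
    congr 1
    have : (SimpleGraph.fromEdgeSet (G.ends '' (T : Set E))).edgeFinset = T.image G.ends := by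
      ext e
      simp only [SimpleGraph.mem_edgeFinset, SimpleGraph.edgeSet_fromEdgeSet, Set.mem_sdiff,
        Set.mem_image, mem_coe, mem_image]
      constructor
      · rintro ⟨h, -⟩; exact h
      · rintro ⟨x, hx, rfl⟩; exact ⟨⟨x, hx, rfl⟩, G.loopless x⟩
    rw [this, card_image_of_injOn hinj]
  refine ⟨hcard, ?_⟩
  obtain ⟨c⟩ := htree.colorable_two
  have hcross : ∀ e ∈ T, G.Crosses (univ.filter (fun v => c v = 0)) e := by
    intro e he
    induction hq : G.ends e using Sym2.ind with
    | _ u v =>
      have hne : u ≠ v := by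
        have := G.loopless e
        rw [hq, Sym2.mk_isDiag_iff] at this
        exact this
      have hadj : (SimpleGraph.fromEdgeSet (G.ends '' (T : Set E))).Adj u v := by
        rw [SimpleGraph.fromEdgeSet_adj]
        exact ⟨⟨e, he, hq⟩, hne⟩
      have hc := c.valid hadj
      by_cases h0 : c u = 0
      · refine ⟨u, v, hq, by simp [h0], ?_⟩
        simp only [mem_filter, mem_univ, true_and]
        intro h1
        exact hc (h0.trans h1.symm)
      · refine ⟨v, u, by rw [hq, Sym2.eq_swap], ?_, by simp [h0]⟩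
        simp only [mem_filter, mem_univ, true_and]
        have hu : c u = 1 := by omega
        have : c v ≠ 1 := fun h => hc (hu.trans h.symm)
        omega
  have hTne : T.Nonempty := by
    rw [← card_pos]; omega
  obtain ⟨e, he⟩ := hTne
  obtain ⟨u, v, -, hu, hv⟩ := hcross e he
  refine ⟨univ.filter (fun v => c v = 0), ⟨u, hu⟩, ?_, ?_⟩
  · intro h
    rw [h] at hv
    exact hv (mem_univ v)
  · unfold Multigraph.cutCard
    rw [filter_true_of_mem hcross]

/-- In the complete graph on `k + 1` vertices no spanning tree is thinner than `4 k / (k + 1)^2`. -/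
theorem complete_thin_bound (k : ℕ) (hk : 1 ≤ k) (T : Finset {e : Sym2 (Fin (k + 1)) // ¬ e.IsDiag})
    (hT : (complete (k + 1)).IsSpanningTree T) (α : ℝ) (hα : (complete (k + 1)).IsThin T α) :
    4 * (k : ℝ) / ((k : ℝ) + 1) ^ 2 ≤ α := by
  have hV : 2 ≤ Fintype.card (Fin (k + 1)) := by simp; omega
  obtain ⟨hcard, S, hS, hS', hcut⟩ := exists_full_cut (complete (k + 1)) T hT hV
  have h := hα S hS hS'
  rw [hcut, cutCard_complete] at h
  have hTk : T.card = k := by simpa using hcard
  rw [hTk] at h
  have h2 : S.card ≤ k + 1 := by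
    have := Finset.card_le_univ S
    simpa using this
  push_cast [Nat.cast_sub h2] at h
  set s : ℝ := (S.card : ℝ) with hs
  have hk0 : (0 : ℝ) < k := by exact_mod_cast hk
  have hprod : s * ((k : ℝ) + 1 - s) ≤ ((k : ℝ) + 1) ^ 2 / 4 := by
    nlinarith [sq_nonneg (2 * s - ((k : ℝ) + 1))]
  have hα0 : 0 < α := by
    by_contra hneg
    rw [not_lt] at hneg
    have hs0 : 0 ≤ s := Nat.cast_nonneg _
    have hs1 : 0 ≤ (k : ℝ) + 1 - s := by
      have : s ≤ (k : ℝ) + 1 := by rw [hs]; exact_mod_cast h2
      linarith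
    have : α * (s * ((k : ℝ) + 1 - s)) ≤ 0 :=
      mul_nonpos_of_nonpos_of_nonneg hneg (mul_nonneg hs0 hs1)
    linarith
  rw [div_le_iff₀ (by positivity)]
  nlinarith [mul_le_mul_of_nonneg_left hprod hα0.le]

/-- (1) For every `k ≥ 1` there is a `k`-edge-connected graph (the complete graph on `k + 1`
vertices) none of whose spanning trees is `α`-thin for any `α < 4 k / (k + 1)^2`.
(2) Hence every constant `C` for which the strong thin tree conjecture holds satisfies `C ≥ 4`. -/
theorem result :
    (∀ k : ℕ, 1 ≤ k → ∃ (V E : Type) (_ : Fintype V) (_ : Fintype E) (G : Multigraph V E),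
        2 ≤ Fintype.card V ∧ G.EdgeConnected k ∧
          ∀ T : Finset E, G.IsSpanningTree T → ∀ α : ℝ, G.IsThin T α →
            4 * (k : ℝ) / ((k : ℝ) + 1) ^ 2 ≤ α) ∧
    (∀ C : ℝ, StrongThinTree C → 4 ≤ C) := by
  constructor
  · intro k hk
    refine ⟨Fin (k + 1), {e : Sym2 (Fin (k + 1)) // ¬ e.IsDiag}, inferInstance, inferInstance,
      complete (k + 1), by simp; omega, complete_edgeConnected k, ?_⟩
    intro T hT α hα
    exact complete_thin_bound k hk T hT α hα
  · intro C hC
    by_contra hlt
    rw [not_le] at hlt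
    obtain ⟨k, hk⟩ := exists_nat_gt (12 / (4 - C))
    have hpos : 0 < 4 - C := by linarith
    have hk0 : (0 : ℝ) < k := lt_trans (by positivity) hk
    have hk1 : 1 ≤ k := by exact_mod_cast hk0
    obtain ⟨T, hT, hthin⟩ := hC k hk1 (Fin (k + 1)) {e : Sym2 (Fin (k + 1)) // ¬ e.IsDiag}
      (complete (k + 1)) (by simp; omega) (complete_edgeConnected k)
    have h := complete_thin_bound k hk1 T hT _ hthin
    rw [div_le_div_iff₀ (by positivity) hk0] at h
    rw [div_lt_iff₀ hpos] at hk
    have hk1' : (1 : ℝ) ≤ k := by exact_mod_cast hk1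
    nlinarith [mul_pos hk0 hpos, mul_pos hk0 hk0]

end Vale.Agent.Results.P061.ConstantAtLeastFour
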